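import Vale.Agent.P032.H800.W33.AD

/-!
# P032: hexagons around a centre with six colours, box tables of mode 33 (rows A2)
-/

open Vale.Agent.P032.Words.Trie

namespace Vale.Agent.P032.H800.W33.A

theorem c2 : csP D J T 2 = true := by decide +kernel
theorem c6 : csP D J T 6 = true := by decide +kernel
theorem c10 : csP D J T 10 = true := by decide +kernel
theorem c14 : csP D J T 14 = true := by decide +kernel
theorem c18 : csP D J T 18 = true := by decide +kernel

end Vale.Agent.P032.H800.W33.A
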