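import Vale.Agent.P032.H800.W33.BD

/-!
# P032: hexagons around a centre with six colours, box tables of mode 33 (check B)
-/

open Vale.Agent.P032.Words.Trie

namespace Vale.Agent.P032.H800.W33.B

theorem k0 : chkQ0 D J R 44 T = true := by decide +kernel

end Vale.Agent.P032.H800.W33.B
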