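import Vale.Agent.P032.H800.W33.CD

/-!
# P032: hexagons around a centre with six colours, box tables of mode 33 (rows C0)
-/

open Vale.Agent.P032.Words.Trie

namespace Vale.Agent.P032.H800.W33.C

theorem c0 : csP D J T 0 = true := by decide +kernel
theorem c4 : csP D J T 4 = true := by decide +kernel
theorem c8 : csP D J T 8 = true := by decide +kernel
theorem c12 : csP D J T 12 = true := by decide +kernel
theorem c16 : csP D J T 16 = true := by decide +kernel

end Vale.Agent.P032.H800.W33.C
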