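import Vale.Agent.P032.H800.W33.CD

/-!
# P032: hexagons around a centre with six colours, box tables of mode 33 (rows C1)
-/

open Vale.Agent.P032.Words.Trie

namespace Vale.Agent.P032.H800.W33.C

theorem c1 : csP D J T 1 = true := by decide +kernel
theorem c5 : csP D J T 5 = true := by decide +kernel
theorem c9 : csP D J T 9 = true := by decide +kernel
theorem c13 : csP D J T 13 = true := by decide +kernel
theorem c17 : csP D J T 17 = true := by decide +kernel

end Vale.Agent.P032.H800.W33.C
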