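import Vale.Agent.P032.H800.W33.CD

/-!
# P032: hexagons around a centre with six colours, box tables of mode 33 (rows C3)
-/

open Vale.Agent.P032.Words.Trie

namespace Vale.Agent.P032.H800.W33.C

theorem c3 : csP D J T 3 = true := by decide +kernel
theorem c7 : csP D J T 7 = true := by decide +kernel
theorem c11 : csP D J T 11 = true := by decide +kernel
theorem c15 : csP D J T 15 = true := by decide +kernel
theorem c19 : csP D J T 19 = true := by decide +kernel

end Vale.Agent.P032.H800.W33.C
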